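import Vale.Agent.Lib.P181.Final2

/-!
For every `a ≥ 1` and every `b` with `a * (a - 1) ^ 2 ≤ 2 * b` the Foulkes-Howe map
`Sym ^ a (Sym ^ b V) → Sym ^ b (Sym ^ a V)` is injective, for every dimension of `V`.
-/

open MvPolynomial Vale.Agent.Lib.P181 in
theorem Vale.Agent.Results.P181.B_main.result (a b n : ℕ) (ha : 1 ≤ a) (hb : 1 ≤ b)
    (hab : a * (a - 1) ^ 2 ≤ 2 * b) :
    ∃ Ψ : homogeneousSubmodule (Sym (Fin n) b) ℂ a →ₗ[ℂ] homogeneousSubmodule (Sym (Fin n) a) ℂ b,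
      (∀ v : Fin a → Fin b → Fin n, Ψ (rowProd v) = colSum v) ∧ Function.Injective Ψ :=
  main_existsH a b n ha hb hab
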